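import Mathlib

/-!
# S0112 — random phases (abstract Parseval for fourth roots of unity)

Mathlib only.  `ph j = I ^ j` for `j : Fin 4`; averages over `θ : Fin N → Fin 4`.
-/

set_option autoImplicit false

open scoped BigOperators InnerProductSpace ComplexConjugate

namespace Crest.Agent.Helper19.S0112

/-- the phase `i^j`, `j : Fin 4` -/
noncomputable def ph (j : Fin 4) : ℂ := Complex.I ^ (j : ℕ)

lemma ph_succ (j : Fin 4) : ph (j + 1) = Complex.I * ph j := by
  fin_cases j <;> simp [ph, pow_succ, Complex.I_mul_I]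

lemma norm_ph (j : Fin 4) : ‖ph j‖ = 1 := by
  simp [ph]

lemma conj_ph_mul_ph (j : Fin 4) : conj (ph j) * ph j = 1 := by
  rw [mul_comm, Complex.mul_conj, Complex.normSq_eq_norm_sq, norm_ph]; simp

lemma ph_mul_conj_ph (j : Fin 4) : ph j * conj (ph j) = 1 := by
  rw [mul_comm, conj_ph_mul_ph]

/-- shift of the `m`-th phase by one step -/
def shiftAt {N : ℕ} (m : Fin N) : (Fin N → Fin 4) ≃ (Fin N → Fin 4) :=
  Equiv.piCongrRight (fun i => if i = m then Equiv.addRight (1 : Fin 4) else Equiv.refl _)

lemma shiftAt_apply_self {N : ℕ} (m : Fin N) (θ : Fin N → Fin 4) :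
    shiftAt m θ m = θ m + 1 := by
  simp [shiftAt]

lemma shiftAt_apply_ne {N : ℕ} (m i : Fin N) (h : i ≠ m) (θ : Fin N → Fin 4) :
    shiftAt m θ i = θ i := by
  simp [shiftAt, h]

/-- a function of the phases that is multiplied by `c ≠ 1` under a shift has zero sum -/
lemma sum_eq_zero_of_shift {N : ℕ} (m : Fin N) (F : (Fin N → Fin 4) → ℂ) (c : ℂ) (hc : c ≠ 1)
    (hF : ∀ θ, F (shiftAt m θ) = c * F θ) : ∑ θ, F θ = 0 := by
  have h1 : ∑ θ, F θ = ∑ θ, F (shiftAt m θ) := (Equiv.sum_comp (shiftAt m) F).symm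
  have h2 : ∑ θ, F (shiftAt m θ) = c * ∑ θ, F θ := by
    rw [Finset.mul_sum]; exact Finset.sum_congr rfl (fun θ _ => hF θ)
  have h3 : (1 - c) * ∑ θ, F θ = 0 := by
    rw [sub_mul, one_mul, ← h2, ← h1, sub_self]
  rcases mul_eq_zero.mp h3 with h | h
  · exact absurd (sub_eq_zero.mp h).symm hc
  · exact h

lemma card_phases (N : ℕ) : (Fintype.card (Fin N → Fin 4) : ℂ) = 4 ^ N := by
  simp

/-- second moment of the phases -/
lemma sum_conj_ph_mul_ph {N : ℕ} (i j : Fin N) :
    ∑ θ : Fin N → Fin 4, conj (ph (θ i)) * ph (θ j) = if i = j then (4 : ℂ) ^ N else 0 := by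
  split_ifs with h
  · subst h
    simp [conj_ph_mul_ph]
  · apply sum_eq_zero_of_shift i _ (conj Complex.I)
    · intro hI
      have := congrArg Complex.im hI
      simp at this
    · intro θ
      have hj : j ≠ i := fun e => h e.symm
      rw [shiftAt_apply_self, shiftAt_apply_ne i j hj, ph_succ, map_mul]
      ring

/-- fourth moment of the phases, the off-diagonal orthogonality -/
lemma sum_ph4 {N : ℕ} (i j k l : Fin N) (hij : i ≠ j) (hkl : k ≠ l) :
    ∑ θ : Fin N → Fin 4, conj (conj (ph (θ i)) * ph (θ j)) * (conj (ph (θ k)) * ph (θ l))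
      = if i = k ∧ j = l then (4 : ℂ) ^ N else 0 := by
  split_ifs with h
  · obtain ⟨rfl, rfl⟩ := h
    have : ∀ θ : Fin N → Fin 4,
        conj (conj (ph (θ i)) * ph (θ j)) * (conj (ph (θ i)) * ph (θ j)) = 1 := by
      intro θ
      rw [map_mul, Complex.conj_conj]
      calc ph (θ i) * conj (ph (θ j)) * (conj (ph (θ i)) * ph (θ j))
          = (ph (θ i) * conj (ph (θ i))) * (conj (ph (θ j)) * ph (θ j)) := by ring
        _ = 1 := by rw [ph_mul_conj_ph, conj_ph_mul_ph, one_mul]
    rw [Finset.sum_congr rfl (fun θ _ => this θ)]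
    simp
  · by_cases hik : i = k
    · subst hik
      have hjl : j ≠ l := fun e => h ⟨rfl, e⟩
      have : ∀ θ : Fin N → Fin 4,
          conj (conj (ph (θ i)) * ph (θ j)) * (conj (ph (θ i)) * ph (θ l))
            = conj (ph (θ j)) * ph (θ l) := by
        intro θ
        rw [map_mul, Complex.conj_conj]
        calc ph (θ i) * conj (ph (θ j)) * (conj (ph (θ i)) * ph (θ l))
            = (ph (θ i) * conj (ph (θ i))) * (conj (ph (θ j)) * ph (θ l)) := by ring
          _ = conj (ph (θ j)) * ph (θ l) := by rw [ph_mul_conj_ph, one_mul]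
      rw [Finset.sum_congr rfl (fun θ _ => this θ), sum_conj_ph_mul_ph, if_neg hjl]
    · -- shift at coordinate `i`: exponent `1 + [i = l]`
      by_cases hil : i = l
      · subst hil
        apply sum_eq_zero_of_shift i _ (Complex.I * Complex.I)
        · rw [Complex.I_mul_I]; norm_num
        · intro θ
          have hj : j ≠ i := fun e => hij e.symm
          have hk : k ≠ i := fun e => hik e.symm
          rw [shiftAt_apply_self, shiftAt_apply_ne i j hj, shiftAt_apply_ne i k hk, ph_succ]
          simp only [map_mul, Complex.conj_conj]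
          ring
      · apply sum_eq_zero_of_shift i _ Complex.I
        · intro hI
          have := congrArg Complex.re hI
          simp at this
        · intro θ
          have hj : j ≠ i := fun e => hij e.symm
          have hk : k ≠ i := fun e => hik e.symm
          have hl : l ≠ i := fun e => hil e.symm
          rw [shiftAt_apply_self, shiftAt_apply_ne i j hj, shiftAt_apply_ne i k hk,
            shiftAt_apply_ne i l hl, ph_succ]
          simp only [map_mul, Complex.conj_conj]
          ring

/-- abstract Parseval for a finite orthogonal family of functions on a finite type -/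
lemma parseval {Θ A E : Type*} [Fintype Θ] [Fintype A] [DecidableEq A]
    [NormedAddCommGroup E] [InnerProductSpace ℂ E]
    (χ : A → Θ → ℂ) (K : A → ℝ)
    (horth : ∀ a b, ∑ θ, conj (χ a θ) * χ b θ = if a = b then (K a : ℂ) else 0)
    (u : A → E) :
    ∑ θ, ‖∑ a, χ a θ • u a‖ ^ 2 = ∑ a, K a * ‖u a‖ ^ 2 := by
  have key : ∑ θ, ⟪∑ a, χ a θ • u a, ∑ a, χ a θ • u a⟫_ℂ = ∑ a, (K a : ℂ) * ⟪u a, u a⟫_ℂ := by
    have h1 : ∀ θ, ⟪∑ a, χ a θ • u a, ∑ a, χ a θ • u a⟫_ℂ
        = ∑ a, ∑ b, (conj (χ a θ) * χ b θ) * ⟪u a, u b⟫_ℂ := by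
      intro θ
      rw [sum_inner]
      refine Finset.sum_congr rfl (fun a _ => ?_)
      rw [inner_sum]
      refine Finset.sum_congr rfl (fun b _ => ?_)
      rw [inner_smul_left, inner_smul_right]
      ring
    rw [Finset.sum_congr rfl (fun θ _ => h1 θ), Finset.sum_comm]
    refine Finset.sum_congr rfl (fun a _ => ?_)
    rw [Finset.sum_comm]
    have h2 : ∀ b, ∑ θ, (conj (χ a θ) * χ b θ) * ⟪u a, u b⟫_ℂ
        = (if a = b then (K a : ℂ) else 0) * ⟪u a, u b⟫_ℂ := by
      intro b
      rw [← Finset.sum_mul, horth]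
    rw [Finset.sum_congr rfl (fun b _ => h2 b)]
    simp
  apply Complex.ofReal_injective
  push_cast
  simpa [inner_self_eq_norm_sq_to_K] using key

/-- **G1**: second moment -/
lemma phase_second_moment {N : ℕ} {E : Type*} [NormedAddCommGroup E] [InnerProductSpace ℂ E]
    (u : Fin N → E) :
    ∑ θ : Fin N → Fin 4, ‖∑ i, ph (θ i) • u i‖ ^ 2 = (4 : ℝ) ^ N * ∑ i, ‖u i‖ ^ 2 := by
  have := parseval (Θ := Fin N → Fin 4) (A := Fin N) (fun i θ => ph (θ i)) (fun _ => (4 : ℝ) ^ N)
    (fun a b => by
      have := sum_conj_ph_mul_ph a b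
      simpa using this) u
  rw [this, Finset.mul_sum]

/-- **G2**: fourth moment -/
lemma phase_fourth_moment {N : ℕ} {E : Type*} [NormedAddCommGroup E] [InnerProductSpace ℂ E]
    (u : Fin N → Fin N → E) :
    ∑ θ : Fin N → Fin 4, ‖∑ i, ∑ j, (conj (ph (θ i)) * ph (θ j)) • u i j‖ ^ 2
      = (4 : ℝ) ^ N * (‖∑ i, u i i‖ ^ 2 + ∑ i, ∑ j, if i = j then 0 else ‖u i j‖ ^ 2) := by
  classical
  let χ : Option (Fin N × Fin N) → (Fin N → Fin 4) → ℂ := fun a θ =>
    match a with
    | none => 1
    | some p => if p.1 = p.2 then 0 else conj (ph (θ p.1)) * ph (θ p.2)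
  let K : Option (Fin N × Fin N) → ℝ := fun a =>
    match a with
    | none => (4 : ℝ) ^ N
    | some p => if p.1 = p.2 then 0 else (4 : ℝ) ^ N
  let u' : Option (Fin N × Fin N) → E := fun a =>
    match a with
    | none => ∑ i, u i i
    | some p => u p.1 p.2
  have horth : ∀ a b, ∑ θ, conj (χ a θ) * χ b θ = if a = b then (K a : ℂ) else 0 := by
    intro a b
    rcases a with _ | ⟨i, j⟩ <;> rcases b with _ | ⟨k, l⟩
    · simp [χ, K]
    · simp only [χ, map_one, one_mul, reduceCtorEq, if_false]
      by_cases hkl : k = l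
      · simp [hkl]
      · simp only [hkl, if_false]
        rw [sum_conj_ph_mul_ph, if_neg hkl]
    · simp only [χ, mul_one, reduceCtorEq, if_false]
      by_cases hij : i = j
      · simp [hij]
      · simp only [hij, if_false]
        rw [← map_sum, sum_conj_ph_mul_ph, if_neg hij, map_zero]
    · simp only [χ, K, Option.some.injEq, Prod.mk.injEq]
      by_cases hij : i = j
      · simp [hij]
      · by_cases hkl : k = l
        · simp only [hij, if_false, hkl, if_true, mul_zero, Finset.sum_const_zero]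
          split_ifs with h
          · exact absurd (h.1.trans h.2.symm) hij
          · rfl
        · simp only [hij, if_false, hkl]
          rw [sum_ph4 i j k l hij hkl]
          push_cast
          rfl
  have hP := parseval χ K horth u'
  have hsum : ∀ θ : Fin N → Fin 4, ∑ a, χ a θ • u' a
      = ∑ i, ∑ j, (conj (ph (θ i)) * ph (θ j)) • u i j := by
    intro θ
    rw [Fintype.sum_option, Fintype.sum_prod_type]
    simp only [χ, u', one_smul]
    rw [← Finset.sum_add_distrib]
    refine Finset.sum_congr rfl (fun i _ => ?_)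
    have : ∀ j, (conj (ph (θ i)) * ph (θ j)) • u i j
        = (if i = j then u i i else 0) + (if i = j then (0:ℂ) else conj (ph (θ i)) * ph (θ j)) • u i j := by
      intro j
      by_cases hij : i = j
      · subst hij
        simp [conj_ph_mul_ph]
      · simp [hij]
    rw [Finset.sum_congr rfl (fun j _ => this j), Finset.sum_add_distrib]
    simp
  rw [Finset.sum_congr rfl (fun θ _ => by rw [← hsum θ]), hP, Fintype.sum_option,
    Fintype.sum_prod_type]
  simp only [K, u']
  rw [mul_add, Finset.mul_sum]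
  congr 1
  refine Finset.sum_congr rfl (fun i _ => ?_)
  rw [Finset.mul_sum]
  refine Finset.sum_congr rfl (fun j _ => ?_)
  by_cases hij : i = j <;> simp [hij]

end Crest.Agent.Helper19.S0112
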