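import Mathlib

/-!
# S0112 — Riemann sums of a continuous Banach-valued function on a uniform grid

Mathlib only.
-/

set_option autoImplicit false

open scoped BigOperators Topology
open Filter MeasureTheory

namespace Crest.Agent.Helper19.S0112

section
variable {E : Type*} [NormedAddCommGroup E] [NormedSpace ℝ E] [CompleteSpace E]

/-- one cell of the Riemann sum -/
lemma riemann_cell (Ψ : ℝ → E) (hΨ : Continuous Ψ) (u v : ℝ) (huv : u ≤ v) (ε : ℝ)
    (h : ∀ t ∈ Set.Icc u v, ‖Ψ t - Ψ u‖ ≤ ε) :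
    ‖(∫ t in u..v, Ψ t) - (v - u) • Ψ u‖ ≤ ε * (v - u) := by
  have h1 : (∫ t in u..v, Ψ t) - (v - u) • Ψ u = ∫ t in u..v, (Ψ t - Ψ u) := by
    rw [intervalIntegral.integral_sub (hΨ.intervalIntegrable _ _)
      (continuous_const.intervalIntegrable _ _), intervalIntegral.integral_const]
  rw [h1]
  have h2 := intervalIntegral.norm_integral_le_of_norm_le_const (a := u) (b := v)
    (f := fun t => Ψ t - Ψ u) (C := ε) (fun t ht => by
      apply h
      rw [Set.uIoc_of_le huv] at ht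
      exact ⟨ht.1.le, ht.2⟩)
  rwa [abs_of_nonneg (sub_nonneg.mpr huv)] at h2

/-- **F1**: Riemann sums on the uniform grid of `[a, b]` converge to the integral -/
theorem riemann_tendsto (Ψ : ℝ → E) (hΨ : Continuous Ψ) (a b : ℝ) (hab : a < b) :
    Tendsto (fun N : ℕ => ((N : ℝ)⁻¹) • ∑ i ∈ Finset.range N, Ψ (a + (b - a) * i / N)) atTop
      (𝓝 ((b - a)⁻¹ • ∫ t in a..b, Ψ t)) := by
  have hL : 0 < b - a := sub_pos.mpr hab
  have huc : UniformContinuousOn Ψ (Set.Icc a b) :=
    isCompact_Icc.uniformContinuousOn_of_continuous hΨ.continuousOn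
  rw [Metric.tendsto_atTop]
  intro ε hε
  have hε2 : 0 < ε / 2 := by positivity
  obtain ⟨δ, hδ, hδ'⟩ := Metric.uniformContinuousOn_iff.mp huc (ε / 2) hε2
  obtain ⟨N₀, hN₀⟩ := exists_nat_gt ((b - a) / δ)
  refine ⟨max N₀ 1, fun N hN => ?_⟩
  have hN1 : 1 ≤ N := le_trans (le_max_right _ _) hN
  have hNpos : (0 : ℝ) < N := by exact_mod_cast hN1
  have hNδ : (b - a) / N < δ := by
    have h1 : (b - a) / δ < N := lt_of_lt_of_le hN₀ (by exact_mod_cast le_trans (le_max_left _ _) hN)
    rw [div_lt_iff₀ hδ] at h1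
    rw [div_lt_iff₀ hNpos]
    linarith [mul_comm (N : ℝ) δ]
  -- the grid
  set t : ℕ → ℝ := fun i => a + (b - a) * i / N with ht
  have ht0 : t 0 = a := by simp [ht]
  have htN : t N = b := by
    simp only [ht]
    field_simp
    ring
  have hstep : ∀ i : ℕ, t (i + 1) - t i = (b - a) / N := by
    intro i
    simp only [ht]
    push_cast
    field_simp
    ring
  have hmono : ∀ i : ℕ, t i ≤ t (i + 1) := by
    intro i
    have := hstep i
    have h2 : 0 ≤ (b - a) / N := by positivity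
    linarith
  have hta : ∀ i : ℕ, a ≤ t i := by
    intro i
    simp only [ht]
    have : 0 ≤ (b - a) * i / N := by positivity
    linarith
  have htb : ∀ i : ℕ, i ≤ N → t i ≤ b := by
    intro i hi
    simp only [ht]
    have h1 : (i : ℝ) ≤ N := by exact_mod_cast hi
    have h2 : (b - a) * i / N ≤ (b - a) := by
      rw [div_le_iff₀ hNpos]
      exact mul_le_mul_of_nonneg_left h1 hL.le
    linarith
  -- split the integral
  have hsplit : ∑ i ∈ Finset.range N, ∫ x in t i..t (i + 1), Ψ x = ∫ x in a..b, Ψ x := by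
    have := intervalIntegral.sum_integral_adjacent_intervals (μ := volume) (f := Ψ) (a := t) (n := N)
      (fun i _ => hΨ.intervalIntegrable _ _)
    rw [ht0, htN] at this
    exact this
  -- each cell
  have hcell : ∀ i ∈ Finset.range N,
      ‖(∫ x in t i..t (i + 1), Ψ x) - ((b - a) / N) • Ψ (t i)‖ ≤ ε / 2 * ((b - a) / N) := by
    intro i hi
    have hi' : i < N := Finset.mem_range.mp hi
    have := riemann_cell Ψ hΨ (t i) (t (i + 1)) (hmono i) (ε / 2) (fun x hx => by
      have hxa : a ≤ x := le_trans (hta i) hx.1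
      have hxb : x ≤ b := le_trans hx.2 (htb (i + 1) hi')
      have hd : dist x (t i) < δ := by
        rw [Real.dist_eq, abs_of_nonneg (sub_nonneg.mpr hx.1)]
        have := hstep i
        linarith [hx.2]
      have := hδ' x ⟨hxa, hxb⟩ (t i) ⟨hta i, htb i hi'.le⟩ hd
      rw [dist_eq_norm] at this
      exact this.le)
    rwa [hstep i] at this
  have htotal : ‖(∫ x in a..b, Ψ x) - ((b - a) / N) • ∑ i ∈ Finset.range N, Ψ (t i)‖
      ≤ ε / 2 * (b - a) := by
    rw [← hsplit, Finset.smul_sum, ← Finset.sum_sub_distrib]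
    calc ‖∑ i ∈ Finset.range N, ((∫ x in t i..t (i + 1), Ψ x) - ((b - a) / N) • Ψ (t i))‖
        ≤ ∑ i ∈ Finset.range N, ‖(∫ x in t i..t (i + 1), Ψ x) - ((b - a) / N) • Ψ (t i)‖ :=
          norm_sum_le _ _
      _ ≤ ∑ i ∈ Finset.range N, ε / 2 * ((b - a) / N) := Finset.sum_le_sum hcell
      _ = ε / 2 * (b - a) := by
          rw [Finset.sum_const, Finset.card_range, nsmul_eq_mul]
          field_simp
  rw [dist_eq_norm]
  have heq : ((N : ℝ)⁻¹) • ∑ i ∈ Finset.range N, Ψ (t i) - (b - a)⁻¹ • ∫ t in a..b, Ψ t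
      = -((b - a)⁻¹ • ((∫ x in a..b, Ψ x) - ((b - a) / N) • ∑ i ∈ Finset.range N, Ψ (t i))) := by
    rw [smul_sub, smul_smul]
    have : (b - a)⁻¹ * ((b - a) / N) = (N : ℝ)⁻¹ := by
      field_simp
    rw [this]
    abel
  rw [heq, norm_neg, norm_smul, Real.norm_eq_abs, abs_of_pos (inv_pos.mpr hL)]
  calc (b - a)⁻¹ * ‖(∫ x in a..b, Ψ x) - ((b - a) / N) • ∑ i ∈ Finset.range N, Ψ (t i)‖
      ≤ (b - a)⁻¹ * (ε / 2 * (b - a)) := mul_le_mul_of_nonneg_left htotal (inv_pos.mpr hL).le
    _ = ε / 2 := by field_simp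
    _ < ε := by linarith

end

end Crest.Agent.Helper19.S0112
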