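import Mathlib
import Crest.Prelude.Def_ModularData
import Crest.Agent.Helper19.S0112.Phases
import Crest.Agent.Helper19.S0112.Riemann

/-!
# S0112 — the abstract analytic core of the assembly

Steps I.3 (second half), I.4 and I.6 of `notes/s0112/PROOF.md`, for an abstract strongly
continuous unitary group `U` fixing a unit vector `ξ`:
grid averages + mean ergodic limits + fourth moment of the random phases + pigeonhole.
-/

set_option autoImplicit false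
set_option linter.unusedSectionVars false

open scoped BigOperators Topology InnerProductSpace ComplexConjugate
open Filter MeasureTheory

namespace Crest.Agent.Helper19.S0112

variable {H : Type*} [NormedAddCommGroup H] [InnerProductSpace ℂ H] [CompleteSpace H]

/-- conjugation by the group: `σ_t(a) = U_t a U_{-t}` -/
def conjU (U : ℝ → H →L[ℂ] H) (t : ℝ) (a : H →L[ℂ] H) : H →L[ℂ] H := U t * a * U (-t)

/-- the uniform grid of the window `[-k, k]` -/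
noncomputable def grid (k N : ℕ) (i : ℕ) : ℝ := -(k : ℝ) + 2 * k * i / N

/-- the unnormalised phase sum -/
noncomputable def psum {N : ℕ} (x : Fin N → H →L[ℂ] H) (θ : Fin N → Fin 4) : H →L[ℂ] H :=
  ∑ i, ph (θ i) • x i

/-- the randomised operator `v_θ = N^{-1/2} Σ_i θ_i σ_{t_i}(a)` -/
noncomputable def vsum (U : ℝ → H →L[ℂ] H) (a : H →L[ℂ] H) (k N : ℕ) (θ : Fin N → Fin 4) :
    H →L[ℂ] H :=
  (((Real.sqrt N)⁻¹ : ℝ) : ℂ) • psum (fun i : Fin N => conjU U (grid k N i) a) θ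

/-! ### group facts -/

section group
variable (U : ℝ → H →L[ℂ] H) (hU0 : U 0 = 1) (hUadd : ∀ s t, U (s + t) = U s * U t)
  (hUnorm : ∀ t x, ‖U t x‖ = ‖x‖)
include hU0 hUadd

lemma U_neg_mul (t : ℝ) : U (-t) * U t = 1 := by
  rw [← hUadd, neg_add_cancel, hU0]

lemma U_mul_neg (t : ℝ) : U t * U (-t) = 1 := by
  rw [← hUadd, add_neg_cancel, hU0]

include hUnorm

lemma star_U (t : ℝ) : star (U t) = U (-t) := by
  have h1 : star (U t) * U t = 1 := by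
    have := (ContinuousLinearMap.norm_map_iff_adjoint_comp_self (U t)).mp (hUnorm t)
    rw [ContinuousLinearMap.star_eq_adjoint]
    exact this
  calc star (U t) = star (U t) * (U t * U (-t)) := by rw [U_mul_neg U hU0 hUadd, mul_one]
    _ = (star (U t) * U t) * U (-t) := by rw [mul_assoc]
    _ = U (-t) := by rw [h1, one_mul]

lemma star_conjU (t : ℝ) (a : H →L[ℂ] H) : star (conjU U t a) = conjU U t (star a) := by
  unfold conjU
  rw [star_mul, star_mul, star_U U hU0 hUadd hUnorm, star_U U hU0 hUadd hUnorm, neg_neg, mul_assoc]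

omit hUnorm in
lemma conjU_mul (t : ℝ) (a b : H →L[ℂ] H) : conjU U t a * conjU U t b = conjU U t (a * b) := by
  unfold conjU
  calc U t * a * U (-t) * (U t * b * U (-t)) = U t * a * (U (-t) * U t) * b * U (-t) := by
        simp only [mul_assoc]
    _ = U t * (a * b) * U (-t) := by rw [U_neg_mul U hU0 hUadd, mul_one, mul_assoc (U t) a b]

omit hU0 hUadd hUnorm in
lemma conjU_apply_fixed (ξ : H) (hξ : ∀ t, U t ξ = ξ) (t : ℝ) (a : H →L[ℂ] H) :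
    conjU U t a ξ = U t (a ξ) := by
  simp [conjU, hξ]

end group

/-! ### grid averages -/

section gridavg
variable {E : Type*} [NormedAddCommGroup E] [NormedSpace ℝ E] [CompleteSpace E]

/-- grid average of a function -/
noncomputable def gavg (Ψ : ℝ → E) (k N : ℕ) : E := ((N : ℝ)⁻¹) • ∑ i : Fin N, Ψ (grid k N i)

lemma gavg_tendsto (Ψ : ℝ → E) (hΨ : Continuous Ψ) (k : ℕ) (hk : 1 ≤ k) :
    Tendsto (fun N : ℕ => gavg Ψ k N) atTop
      (𝓝 ((2 * (k : ℝ))⁻¹ • ∫ t in (-(k : ℝ))..k, Ψ t)) := by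
  have hk' : (0 : ℝ) < k := by exact_mod_cast hk
  have h := riemann_tendsto Ψ hΨ (-(k : ℝ)) k (by linarith)
  have e1 : ((k : ℝ) - -(k : ℝ)) = 2 * k := by ring
  rw [e1] at h
  refine h.congr (fun N => ?_)
  unfold gavg grid
  rw [← Fin.sum_univ_eq_sum_range (fun i => Ψ (-(k : ℝ) + 2 * (k : ℝ) * (i : ℝ) / (N : ℝ))) N]

end gridavg

lemma windowMean_eq (f : ℝ → ℝ) (k : ℕ) :
    Crest.OpAlg.windowMean f k = (2 * (k : ℝ))⁻¹ • ∫ t in (-(k : ℝ))..k, f t := by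
  unfold Crest.OpAlg.windowMean
  have hle : -(k : ℝ) ≤ k := by
    have : (0 : ℝ) ≤ k := Nat.cast_nonneg k
    linarith
  have h1 : ⨍ t in Set.Icc (-(k : ℝ)) (k : ℝ), f t = ⨍ t in Set.Ioc (-(k : ℝ)) (k : ℝ), f t :=
    setAverage_congr Ioc_ae_eq_Icc.symm
  have h2 := interval_average_eq f (-(k : ℝ)) k
  rw [Set.uIoc_of_le hle] at h2
  rw [h1, h2]
  congr 1
  ring

/-! ### the phase sums -/

section psum
variable {N : ℕ}

lemma psum_apply (x : Fin N → H →L[ℂ] H) (θ : Fin N → Fin 4) (z : H) :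
    psum x θ z = ∑ i, ph (θ i) • x i z := by
  simp [psum]

lemma star_psum (x : Fin N → H →L[ℂ] H) (θ : Fin N → Fin 4) :
    star (psum x θ) = ∑ i, conj (ph (θ i)) • star (x i) := by
  simp [psum, star_sum, star_smul]

lemma star_psum_psum_apply (x : Fin N → H →L[ℂ] H) (θ : Fin N → Fin 4) (z : H) :
    star (psum x θ) (psum x θ z)
      = ∑ i, ∑ j, (conj (ph (θ i)) * ph (θ j)) • star (x i) (x j z) := by
  rw [star_psum, psum_apply]
  have h0 : (∑ i, conj (ph (θ i)) • star (x i)) (∑ j, ph (θ j) • x j z)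
      = ∑ i, conj (ph (θ i)) • star (x i) (∑ j, ph (θ j) • x j z) := by
    simp only [FunLike.coe_sum, Finset.sum_apply, FunLike.coe_smul, Pi.smul_apply]
  rw [h0]
  refine Finset.sum_congr rfl (fun i _ => ?_)
  rw [map_sum, Finset.smul_sum]
  refine Finset.sum_congr rfl (fun j _ => ?_)
  rw [map_smul, smul_smul]

/-- second moment (G1) for operators -/
lemma second_moment (T : H →L[ℂ] H) (x : Fin N → H →L[ℂ] H) (z : H) :
    ∑ θ : Fin N → Fin 4, ‖T (psum x θ z)‖ ^ 2 = (4 : ℝ) ^ N * ∑ i, ‖T (x i z)‖ ^ 2 := by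
  have h : ∀ θ : Fin N → Fin 4, T (psum x θ z) = ∑ i, ph (θ i) • T (x i z) := by
    intro θ
    rw [psum_apply, map_sum]
    exact Finset.sum_congr rfl (fun i _ => by rw [map_smul])
  rw [Finset.sum_congr rfl (fun θ _ => by rw [h θ])]
  exact phase_second_moment (fun i => T (x i z))

/-- fourth moment (G2) for operators -/
lemma fourth_moment (x : Fin N → H →L[ℂ] H) (z : H) :
    ∑ θ : Fin N → Fin 4, ‖star (psum x θ) (psum x θ z)‖ ^ 2
      = (4 : ℝ) ^ N * (‖∑ i, star (x i) (x i z)‖ ^ 2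
          + ∑ i, ∑ j, if i = j then 0 else ‖star (x i) (x j z)‖ ^ 2) := by
  rw [Finset.sum_congr rfl (fun θ _ => by rw [star_psum_psum_apply x θ z])]
  exact phase_fourth_moment (fun i j => star (x i) (x j z))

end psum

/-! ### the fourth moment along an orbit, using the KMS identity -/

section orbit
variable (U : ℝ → H →L[ℂ] H) (hU0 : U 0 = 1) (hUadd : ∀ s t, U (s + t) = U s * U t)
  (hUnorm : ∀ t x, ‖U t x‖ = ‖x‖) (ξ : H) (hξ : ∀ t, U t ξ = ξ)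
  (a : H →L[ℂ] H) (w : H)
  (hK : ∀ t s : ℝ, ⟪conjU U t a ξ, (conjU U s a * star (conjU U s a)) (conjU U t a ξ)⟫_ℂ
      = ⟪U t w, (conjU U s a * star (conjU U s a)) ξ⟫_ℂ)
include hU0 hUadd hUnorm hξ

lemma star_mul_self_vac (t : ℝ) :
    star (conjU U t a) (conjU U t a ξ) = U t (star a (a ξ)) := by
  have : star (conjU U t a) (conjU U t a ξ) = (star (conjU U t a) * conjU U t a) ξ := rfl
  rw [this, star_conjU U hU0 hUadd hUnorm, conjU_mul U hU0 hUadd, conjU_apply_fixed U ξ hξ]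
  rfl

lemma self_mul_star_vac (t : ℝ) :
    (conjU U t a * star (conjU U t a)) ξ = U t (a (star a ξ)) := by
  rw [star_conjU U hU0 hUadd hUnorm, conjU_mul U hU0 hUadd, conjU_apply_fixed U ξ hξ]
  rfl

include hK

lemma offdiag_le {N : ℕ} (t : Fin N → ℝ) :
    ∑ i, ∑ j, (if i = j then 0 else
        ‖star (conjU U (t i) a) (conjU U (t j) a ξ)‖ ^ 2)
      ≤ ‖∑ j, U (t j) w‖ * ‖∑ i, U (t i) (a (star a ξ))‖ := by
  have h1 : ∀ i j : Fin N, ‖star (conjU U (t i) a) (conjU U (t j) a ξ)‖ ^ 2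
      = (⟪U (t j) w, U (t i) (a (star a ξ))⟫_ℂ).re := by
    intro i j
    rw [← self_mul_star_vac U hU0 hUadd hUnorm ξ hξ a (t i), ← hK (t j) (t i)]
    have e1 : (conjU U (t i) a * star (conjU U (t i) a)) (conjU U (t j) a ξ)
        = conjU U (t i) a (star (conjU U (t i) a) (conjU U (t j) a ξ)) := rfl
    rw [e1, ContinuousLinearMap.star_eq_adjoint,
      ← ContinuousLinearMap.adjoint_inner_left, inner_self_eq_norm_sq_to_K]
    norm_cast
  calc ∑ i, ∑ j, (if i = j then 0 else ‖star (conjU U (t i) a) (conjU U (t j) a ξ)‖ ^ 2)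
      ≤ ∑ i, ∑ j, ‖star (conjU U (t i) a) (conjU U (t j) a ξ)‖ ^ 2 := by
        refine Finset.sum_le_sum (fun i _ => Finset.sum_le_sum (fun j _ => ?_))
        split_ifs
        · positivity
        · exact le_rfl
    _ = (⟪∑ j, U (t j) w, ∑ i, U (t i) (a (star a ξ))⟫_ℂ).re := by
        rw [inner_sum, Complex.re_sum]
        refine Finset.sum_congr rfl (fun i _ => ?_)
        rw [sum_inner, Complex.re_sum]
        exact Finset.sum_congr rfl (fun j _ => h1 i j)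
    _ ≤ ‖∑ j, U (t j) w‖ * ‖∑ i, U (t i) (a (star a ξ))‖ := by
        have h := re_inner_le_norm (𝕜 := ℂ) (∑ j, U (t j) w) (∑ i, U (t i) (a (star a ξ)))
        rw [RCLike.re_to_complex] at h
        exact h

/-- the fourth-moment bound along an orbit -/
lemma fourth_moment_orbit {N : ℕ} (t : Fin N → ℝ) :
    ∑ θ : Fin N → Fin 4, ‖star (psum (fun i => conjU U (t i) a) θ)
        (psum (fun i => conjU U (t i) a) θ ξ)‖ ^ 2
      ≤ (4 : ℝ) ^ N * (‖∑ i, U (t i) (star a (a ξ))‖ ^ 2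
          + ‖∑ j, U (t j) w‖ * ‖∑ i, U (t i) (a (star a ξ))‖) := by
  rw [fourth_moment]
  have h4 : (0 : ℝ) ≤ (4 : ℝ) ^ N := by positivity
  refine mul_le_mul_of_nonneg_left ?_ h4
  have hd : ∑ i, star (conjU U (t i) a) (conjU U (t i) a ξ) = ∑ i, U (t i) (star a (a ξ)) :=
    Finset.sum_congr rfl (fun i _ => star_mul_self_vac U hU0 hUadd hUnorm ξ hξ a (t i))
  rw [hd]
  exact add_le_add le_rfl (offdiag_le U hU0 hUadd hUnorm ξ hξ a w hK t)

end orbit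

/-! ### normalisation -/

section norm
variable (U : ℝ → H →L[ℂ] H) (a : H →L[ℂ] H)

lemma vsum_apply (k N : ℕ) (θ : Fin N → Fin 4) (z : H) :
    vsum U a k N θ z
      = (((Real.sqrt N)⁻¹ : ℝ) : ℂ) • ∑ i : Fin N, ph (θ i) • conjU U (grid k N i) a z := by
  rw [vsum, smul_apply, psum_apply]

lemma norm_T_vsum_sq (T : H →L[ℂ] H) (k N : ℕ) (θ : Fin N → Fin 4) (z : H) :
    ‖T (vsum U a k N θ z)‖ ^ 2
      = (N : ℝ)⁻¹ * ‖T (psum (fun i : Fin N => conjU U (grid k N i) a) θ z)‖ ^ 2 := by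
  rw [vsum, smul_apply, map_smul, norm_smul, mul_pow, Complex.norm_real,
    Real.norm_eq_abs, sq_abs, inv_pow, Real.sq_sqrt (Nat.cast_nonneg N)]

lemma norm_star_vsum_sq (k N : ℕ) (θ : Fin N → Fin 4) (z : H) :
    ‖star (vsum U a k N θ) (vsum U a k N θ z)‖ ^ 2
      = ((N : ℝ)⁻¹) ^ 2 * ‖star (psum (fun i : Fin N => conjU U (grid k N i) a) θ)
          (psum (fun i : Fin N => conjU U (grid k N i) a) θ z)‖ ^ 2 := by
  have hs : star (vsum U a k N θ)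
      = (((Real.sqrt N)⁻¹ : ℝ) : ℂ) • star (psum (fun i : Fin N => conjU U (grid k N i) a) θ) := by
    rw [vsum, star_smul]
    congr 1
    simp
  rw [hs, vsum, smul_apply, smul_apply, map_smul,
    smul_smul, norm_smul, mul_pow, norm_mul, Complex.norm_real, Real.norm_eq_abs, mul_pow, sq_abs,
    inv_pow, Real.sq_sqrt (Nat.cast_nonneg N)]
  ring

end norm

/-! ### the core -/

/-- a sum over the grid in terms of the grid average -/
lemma norm_sum_grid {E : Type*} [NormedAddCommGroup E] [NormedSpace ℝ E] [CompleteSpace E]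
    (Ψ : ℝ → E) (k N : ℕ) (hN : 1 ≤ N) :
    ‖∑ i : Fin N, Ψ (grid k N i)‖ = N * ‖gavg Ψ k N‖ := by
  have hN' : (0 : ℝ) < N := by exact_mod_cast hN
  rw [gavg, norm_smul, Real.norm_eq_abs, abs_of_pos (inv_pos.mpr hN'), ← mul_assoc,
    mul_inv_cancel₀ hN'.ne', one_mul]

/-- **The abstract analytic core of the assembly** (steps I.3–I.6 of `PROOF.md`). -/
theorem core (U : ℝ → H →L[ℂ] H) (hU0 : U 0 = 1) (hUadd : ∀ s t, U (s + t) = U s * U t)
    (hUnorm : ∀ t x, ‖U t x‖ = ‖x‖) (hUcont : ∀ x, Continuous fun t => U t x)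
    (ξ : H) (hξ : ∀ t, U t ξ = ξ)
    (hE2 : ∀ z : H, Tendsto (fun k : ℕ => (2 * (k : ℝ))⁻¹ • ∫ t in (-(k : ℝ))..k, U t z) atTop
      (𝓝 (⟪ξ, z⟫_ℂ • ξ)))
    (hξ1 : ‖ξ‖ = 1)
    (a : H →L[ℂ] H) (w : H) (hw : ⟪ξ, w⟫_ℂ = ((‖a ξ‖ ^ 2 : ℝ) : ℂ))
    (hK : ∀ t s : ℝ, ⟪conjU U t a ξ, (conjU U s a * star (conjU U s a)) (conjU U t a ξ)⟫_ℂ
      = ⟪U t w, (conjU U s a * star (conjU U s a)) ξ⟫_ℂ)
    (T : H →L[ℂ] H) (c : ℝ) (hc : 0 < c)
    (hfreq : ∃ᶠ k : ℕ in atTop,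
      5 * c / 8 ≤ Crest.OpAlg.windowMean (fun t => ‖T (U t (a ξ))‖ ^ 2) k)
    (B R : ℝ)
    (hB : (‖a ξ‖ ^ 2 + 1 / 2) ^ 2 + (‖a ξ‖ ^ 2 + 1 / 2) * (‖star a ξ‖ ^ 2 + 1 / 2) ≤ B)
    (hR : 0 < R) (hRB : ‖T‖ ^ 2 * B / (2 * R) ≤ c / 4)
    (Φ : (H →L[ℂ] H) → (H →L[ℂ] H))
    (hΦ : ∀ (k N : ℕ) (θ : Fin N → Fin 4),
      ‖Φ (vsum U a k N θ) ξ - vsum U a k N θ ξ‖
        ≤ ‖star (vsum U a k N θ) (vsum U a k N θ ξ)‖ / (2 * Real.sqrt R)) :
    ∃ (k N : ℕ) (θ : Fin N → Fin 4), 1 ≤ k ∧ 1 ≤ N ∧ c / 8 ≤ ‖T (Φ (vsum U a k N θ) ξ)‖ ^ 2 := by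
  classical
  -- the three orbit vectors
  set z1 : H := star a (a ξ) with hz1
  set z2 : H := a (star a ξ) with hz2
  have hn1 : ‖⟪ξ, z1⟫_ℂ • ξ‖ = ‖a ξ‖ ^ 2 := by
    have : ⟪ξ, z1⟫_ℂ = ((‖a ξ‖ ^ 2 : ℝ) : ℂ) := by
      rw [hz1, ContinuousLinearMap.star_eq_adjoint, ContinuousLinearMap.adjoint_inner_right,
        inner_self_eq_norm_sq_to_K]
      norm_cast
    rw [norm_smul, hξ1, mul_one, this, Complex.norm_real, Real.norm_eq_abs,
      abs_of_nonneg (by positivity)]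
  have hn2 : ‖⟪ξ, z2⟫_ℂ • ξ‖ = ‖star a ξ‖ ^ 2 := by
    have : ⟪ξ, z2⟫_ℂ = ((‖star a ξ‖ ^ 2 : ℝ) : ℂ) := by
      rw [hz2, ← ContinuousLinearMap.adjoint_inner_left, ← ContinuousLinearMap.star_eq_adjoint,
        inner_self_eq_norm_sq_to_K]
      norm_cast
    rw [norm_smul, hξ1, mul_one, this, Complex.norm_real, Real.norm_eq_abs,
      abs_of_nonneg (by positivity)]
  have hn3 : ‖⟪ξ, w⟫_ℂ • ξ‖ = ‖a ξ‖ ^ 2 := by
    rw [norm_smul, hξ1, mul_one, hw, Complex.norm_real, Real.norm_eq_abs,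
      abs_of_nonneg (by positivity)]
  -- window averages are eventually close to the ergodic limits
  have evk : ∀ (z : H) (m : ℝ), ‖⟪ξ, z⟫_ℂ • ξ‖ = m →
      ∀ᶠ k : ℕ in atTop, ‖(2 * (k : ℝ))⁻¹ • ∫ t in (-(k : ℝ))..k, U t z‖ < m + 1 / 4 := by
    intro z m hm
    have h := (hE2 z).norm
    rw [hm] at h
    exact (tendsto_order.1 h).2 (m + 1 / 4) (by linarith)
  obtain ⟨k, hkfreq, hk1, hk_1, hk_2, hk_3⟩ :=
    (hfreq.and_eventually ((eventually_ge_atTop 1).and ((evk z1 _ hn1).and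
      ((evk z2 _ hn2).and (evk w _ hn3))))).exists
  -- grid averages are eventually close to the window averages
  have evN : ∀ (z : H) (m : ℝ), ‖(2 * (k : ℝ))⁻¹ • ∫ t in (-(k : ℝ))..k, U t z‖ < m + 1 / 4 →
      ∀ᶠ N : ℕ in atTop, ‖gavg (fun t => U t z) k N‖ < m + 1 / 2 := by
    intro z m hm
    have h := (gavg_tendsto (fun t => U t z) (hUcont z) k hk1).norm
    exact (tendsto_order.1 h).2 (m + 1 / 2) (by linarith)
  have hψc : Continuous (fun t => ‖T (U t (a ξ))‖ ^ 2) :=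
    ((T.continuous.comp (hUcont (a ξ))).norm).pow 2
  have evψ : ∀ᶠ N : ℕ in atTop, c / 2 < gavg (fun t => ‖T (U t (a ξ))‖ ^ 2) k N := by
    have h := gavg_tendsto (fun t => ‖T (U t (a ξ))‖ ^ 2) hψc k hk1
    rw [← windowMean_eq] at h
    exact (tendsto_order.1 h).1 (c / 2) (by linarith)
  obtain ⟨N, hN1, hN_1, hN_2, hN_3, hN_ψ⟩ :=
    ((eventually_ge_atTop 1).and ((evN z1 _ hk_1).and ((evN z2 _ hk_2).and
      ((evN w _ hk_3).and evψ)))).exists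
  have hNpos : (0 : ℝ) < N := by exact_mod_cast hN1
  refine ⟨k, N, ?_⟩
  set x : Fin N → H →L[ℂ] H := fun i => conjU U (grid k N i) a with hx
  have h4 : (0 : ℝ) < (4 : ℝ) ^ N := by positivity
  -- second moment
  have hS1 : ∑ θ : Fin N → Fin 4, ‖T (vsum U a k N θ ξ)‖ ^ 2
      = (4 : ℝ) ^ N * gavg (fun t => ‖T (U t (a ξ))‖ ^ 2) k N := by
    rw [Finset.sum_congr rfl (fun θ _ => norm_T_vsum_sq U a T k N θ ξ), ← Finset.mul_sum,
      second_moment T x ξ]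
    have : ∀ i : Fin N, ‖T (x i ξ)‖ ^ 2 = ‖T (U (grid k N i) (a ξ))‖ ^ 2 := by
      intro i
      rw [hx, conjU_apply_fixed U ξ hξ]
    rw [Finset.sum_congr rfl (fun i _ => this i), gavg, smul_eq_mul]
    ring
  -- fourth moment
  have hS2 : ∑ θ : Fin N → Fin 4, ‖star (vsum U a k N θ) (vsum U a k N θ ξ)‖ ^ 2
      ≤ (4 : ℝ) ^ N * B := by
    rw [Finset.sum_congr rfl (fun θ _ => norm_star_vsum_sq U a k N θ ξ), ← Finset.mul_sum]
    have hfm := fourth_moment_orbit U hU0 hUadd hUnorm ξ hξ a w hK (fun i : Fin N => grid k N i)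
    have e1 : ‖∑ i : Fin N, U (grid k N i) z1‖ = N * ‖gavg (fun t => U t z1) k N‖ :=
      norm_sum_grid (fun t => U t z1) k N hN1
    have e2 : ‖∑ i : Fin N, U (grid k N i) z2‖ = N * ‖gavg (fun t => U t z2) k N‖ :=
      norm_sum_grid (fun t => U t z2) k N hN1
    have e3 : ‖∑ i : Fin N, U (grid k N i) w‖ = N * ‖gavg (fun t => U t w) k N‖ :=
      norm_sum_grid (fun t => U t w) k N hN1
    rw [e1, e2, e3] at hfm
    have g1 := hN_1
    have g2 := hN_2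
    have g3 := hN_3
    have p1 : 0 ≤ ‖gavg (fun t => U t z1) k N‖ := norm_nonneg _
    have p2 : 0 ≤ ‖gavg (fun t => U t z2) k N‖ := norm_nonneg _
    have p3 : 0 ≤ ‖gavg (fun t => U t w) k N‖ := norm_nonneg _
    have b1 : ‖gavg (fun t => U t z1) k N‖ ^ 2 ≤ (‖a ξ‖ ^ 2 + 1 / 2) ^ 2 :=
      pow_le_pow_left₀ p1 g1.le 2
    have b2 : ‖gavg (fun t => U t w) k N‖ * ‖gavg (fun t => U t z2) k N‖
        ≤ (‖a ξ‖ ^ 2 + 1 / 2) * (‖star a ξ‖ ^ 2 + 1 / 2) :=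
      mul_le_mul g3.le g2.le p2 (by positivity)
    calc ((N : ℝ)⁻¹) ^ 2 * ∑ θ : Fin N → Fin 4, ‖star (psum x θ) (psum x θ ξ)‖ ^ 2
        ≤ ((N : ℝ)⁻¹) ^ 2 * ((4 : ℝ) ^ N * ((N * ‖gavg (fun t => U t z1) k N‖) ^ 2
            + N * ‖gavg (fun t => U t w) k N‖ * (N * ‖gavg (fun t => U t z2) k N‖))) :=
          mul_le_mul_of_nonneg_left hfm (by positivity)
      _ = (4 : ℝ) ^ N * (‖gavg (fun t => U t z1) k N‖ ^ 2
            + ‖gavg (fun t => U t w) k N‖ * ‖gavg (fun t => U t z2) k N‖) := by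
          field_simp
      _ ≤ (4 : ℝ) ^ N * B := by
          refine mul_le_mul_of_nonneg_left ?_ h4.le
          linarith
  -- pointwise comparison
  have hRs : 0 < Real.sqrt R := Real.sqrt_pos.mpr hR
  have hpt : ∀ θ : Fin N → Fin 4, ‖T (vsum U a k N θ ξ)‖ ^ 2
      ≤ 2 * ‖T (Φ (vsum U a k N θ) ξ)‖ ^ 2
        + ‖T‖ ^ 2 / (2 * R) * ‖star (vsum U a k N θ) (vsum U a k N θ ξ)‖ ^ 2 := by
    intro θ
    set v := vsum U a k N θ
    have hd : ‖T (v ξ) - T (Φ v ξ)‖ ≤ ‖T‖ * (‖star v (v ξ)‖ / (2 * Real.sqrt R)) := by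
      rw [← map_sub]
      calc ‖T (v ξ - Φ v ξ)‖ ≤ ‖T‖ * ‖v ξ - Φ v ξ‖ := T.le_opNorm _
        _ ≤ ‖T‖ * (‖star v (v ξ)‖ / (2 * Real.sqrt R)) := by
            refine mul_le_mul_of_nonneg_left ?_ (norm_nonneg _)
            rw [norm_sub_rev]
            exact hΦ k N θ
    have htri : ‖T (v ξ)‖ ≤ ‖T (Φ v ξ)‖ + ‖T‖ * (‖star v (v ξ)‖ / (2 * Real.sqrt R)) := by
      calc ‖T (v ξ)‖ = ‖T (Φ v ξ) + (T (v ξ) - T (Φ v ξ))‖ := by rw [add_sub_cancel]
        _ ≤ ‖T (Φ v ξ)‖ + ‖T (v ξ) - T (Φ v ξ)‖ := norm_add_le _ _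
        _ ≤ ‖T (Φ v ξ)‖ + ‖T‖ * (‖star v (v ξ)‖ / (2 * Real.sqrt R)) := by linarith
    have hsq : (‖T‖ * (‖star v (v ξ)‖ / (2 * Real.sqrt R))) ^ 2
        = ‖T‖ ^ 2 / (4 * R) * ‖star v (v ξ)‖ ^ 2 := by
      rw [mul_pow, div_pow, mul_pow, Real.sq_sqrt hR.le]
      field_simp
      ring
    have hA : 0 ≤ ‖T (Φ v ξ)‖ := norm_nonneg _
    have hBn : 0 ≤ ‖T‖ * (‖star v (v ξ)‖ / (2 * Real.sqrt R)) := by positivity
    calc ‖T (v ξ)‖ ^ 2 ≤ (‖T (Φ v ξ)‖ + ‖T‖ * (‖star v (v ξ)‖ / (2 * Real.sqrt R))) ^ 2 :=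
          pow_le_pow_left₀ (norm_nonneg _) htri 2
      _ ≤ 2 * ‖T (Φ v ξ)‖ ^ 2 + 2 * (‖T‖ * (‖star v (v ξ)‖ / (2 * Real.sqrt R))) ^ 2 := by
          nlinarith [sq_nonneg (‖T (Φ v ξ)‖ - ‖T‖ * (‖star v (v ξ)‖ / (2 * Real.sqrt R)))]
      _ = 2 * ‖T (Φ v ξ)‖ ^ 2 + ‖T‖ ^ 2 / (2 * R) * ‖star v (v ξ)‖ ^ 2 := by
          rw [hsq]
          field_simp
          ring
  -- sum over the phases
  have hsum : (4 : ℝ) ^ N * (c / 8) ≤ ∑ θ : Fin N → Fin 4, ‖T (Φ (vsum U a k N θ) ξ)‖ ^ 2 := by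
    have h1 : ∑ θ : Fin N → Fin 4, ‖T (vsum U a k N θ ξ)‖ ^ 2
        ≤ 2 * ∑ θ : Fin N → Fin 4, ‖T (Φ (vsum U a k N θ) ξ)‖ ^ 2
          + ‖T‖ ^ 2 / (2 * R)
            * ∑ θ : Fin N → Fin 4, ‖star (vsum U a k N θ) (vsum U a k N θ ξ)‖ ^ 2 := by
      rw [Finset.mul_sum, Finset.mul_sum, ← Finset.sum_add_distrib]
      exact Finset.sum_le_sum (fun θ _ => hpt θ)
    have h2 : ‖T‖ ^ 2 / (2 * R)
          * ∑ θ : Fin N → Fin 4, ‖star (vsum U a k N θ) (vsum U a k N θ ξ)‖ ^ 2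
        ≤ (4 : ℝ) ^ N * (c / 4) := by
      calc ‖T‖ ^ 2 / (2 * R)
            * ∑ θ : Fin N → Fin 4, ‖star (vsum U a k N θ) (vsum U a k N θ ξ)‖ ^ 2
          ≤ ‖T‖ ^ 2 / (2 * R) * ((4 : ℝ) ^ N * B) :=
            mul_le_mul_of_nonneg_left hS2 (by positivity)
        _ = (4 : ℝ) ^ N * (‖T‖ ^ 2 * B / (2 * R)) := by ring
        _ ≤ (4 : ℝ) ^ N * (c / 4) := mul_le_mul_of_nonneg_left hRB h4.le
    have h3 : (4 : ℝ) ^ N * (c / 2) ≤ ∑ θ : Fin N → Fin 4, ‖T (vsum U a k N θ ξ)‖ ^ 2 := by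
      rw [hS1]
      exact mul_le_mul_of_nonneg_left hN_ψ.le h4.le
    nlinarith
  -- pigeonhole
  have hcard : ∑ _θ : Fin N → Fin 4, (c / 8) = (4 : ℝ) ^ N * (c / 8) := by
    rw [Finset.sum_const, Finset.card_univ, nsmul_eq_mul]
    simp
  obtain ⟨θ, -, hθ⟩ := Finset.exists_le_of_sum_le (s := (Finset.univ : Finset (Fin N → Fin 4)))
    (f := fun _ => c / 8) (g := fun θ => ‖T (Φ (vsum U a k N θ) ξ)‖ ^ 2)
    Finset.univ_nonempty (by rw [hcard]; exact hsum)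
  exact ⟨θ, hk1, hN1, hθ⟩

end Crest.Agent.Helper19.S0112

section byproducts
open Crest.Agent.Helper19.S0112

variable {H : Type*} [NormedAddCommGroup H] [InnerProductSpace ℂ H] [CompleteSpace H]

/-- `v_θ ξ` in terms of the orbit of `a ξ` (for the support bookkeeping) -/
theorem Crest.Agent.Helper19.S0112.vsum_apply_vac (U : ℝ → H →L[ℂ] H) (a : H →L[ℂ] H)
    (ξ : H) (hξ : ∀ t, U t ξ = ξ) (k N : ℕ) (θ : Fin N → Fin 4) :
    vsum U a k N θ ξ
      = (((Real.sqrt N)⁻¹ : ℝ) : ℂ) • ∑ i : Fin N, ph (θ i) • U (grid k N i) (a ξ) := by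
  rw [vsum_apply]
  congr 1
  exact Finset.sum_congr rfl (fun i _ => by rw [conjU_apply_fixed U ξ hξ])

/-- `v_θ` lies in any von Neumann algebra stable under the conjugations -/
theorem Crest.Agent.Helper19.S0112.vsum_mem (U : ℝ → H →L[ℂ] H) (a : H →L[ℂ] H)
    (M : VonNeumannAlgebra H) (hM : ∀ t : ℝ, U t * a * U (-t) ∈ M)
    (k N : ℕ) (θ : Fin N → Fin 4) : vsum U a k N θ ∈ M := by
  have h1 : ∀ i : Fin N, ph (θ i) • conjU U (grid k N i) a ∈ M.toStarSubalgebra :=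
    fun i => M.toStarSubalgebra.smul_mem (hM _) _
  have h2 : psum (fun i : Fin N => conjU U (grid k N i) a) θ ∈ M.toStarSubalgebra :=
    sum_mem (fun i _ => h1 i)
  exact M.toStarSubalgebra.smul_mem h2 _

end byproducts
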